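import Vale.Agent.P358_h28.Final

/-!
P358: classical capacity of the (generalized) amplitude-damping channel, `ν = 0` and `ν = 1`.
-/

open Vale.Agent.P358

/-- For every damping strength `γ ∈ [0,1]` and `ν ∈ {0,1}` (ordinary amplitude damping, and the
same channel with the roles of the two basis states exchanged): the Holevo capacity of `n` uses is
attained and equals `n` times the one-use Holevo capacity, so the classical capacity equals the
Holevo capacity, and it is the maximum of the one-parameter function shown. -/
theorem Vale.Agent.Results.P358.AmplitudeDampingCapacity.result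
    (γ ν : ℝ) (hγ : γ ∈ Set.Icc (0 : ℝ) 1) (hν : ν = 0 ∨ ν = 1) :
    (∀ n : ℕ, 1 ≤ n → IsGreatest (holevoSet (tensorPow (gad γ ν) n)) (n * holevo (gad γ ν))) ∧
    classicalCapacity (gad γ ν) = holevo (gad γ ν) ∧
    IsGreatest ((fun q : ℝ => (Real.binEntropy ((1 - γ) * q + γ * ν) - Real.binEntropy
      ((1 + Real.sqrt (1 - 4 * (γ * (1 - γ) * (q - ν) ^ 2 + γ * ν * (1 - ν)))) / 2)) /
        Real.log 2) '' Set.Icc (0 : ℝ) 1) (classicalCapacity (gad γ ν)) := by
  rcases hν with rfl | rfl
  · exact final_of_keyIneq hγ (by simp) (keyIneq_zero hγ)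
  · exact final_of_keyIneq hγ (by simp) (keyIneq_one hγ)
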