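import Vale.Agent.P358_h28.Final
import Vale.Agent.P358_h28.GenKey

/-!
P358: the classical capacity of the generalized amplitude-damping channel, all parameters.
-/

open Vale.Agent.P358

/-- For every damping strength `γ ∈ [0,1]` and every stationary population `ν ∈ [0,1]`:
for each `n ≥ 1` the Holevo capacity of `n` uses (entangled inputs allowed) is attained and equals
`n` times the one-use Holevo capacity; the classical capacity equals the Holevo capacity; and it is
the maximum over `q ∈ [0,1]` of the explicit one-parameter function shown. -/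
theorem Vale.Agent.Results.P358.GadCapacity.result
    (γ ν : ℝ) (hγ : γ ∈ Set.Icc (0 : ℝ) 1) (hν : ν ∈ Set.Icc (0 : ℝ) 1) :
    (∀ n : ℕ, 1 ≤ n →
      IsGreatest (holevoSet (tensorPow (gad γ ν) n)) (holevo (tensorPow (gad γ ν) n)) ∧
      holevo (tensorPow (gad γ ν) n) = n * holevo (gad γ ν)) ∧
    classicalCapacity (gad γ ν) = holevo (gad γ ν) ∧
    IsGreatest ((fun q : ℝ => (Real.binEntropy ((1 - γ) * q + γ * ν) - Real.binEntropy
      ((1 + Real.sqrt (1 - 4 * (γ * (1 - γ) * (q - ν) ^ 2 + γ * ν * (1 - ν)))) / 2)) /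
        Real.log 2) '' Set.Icc (0 : ℝ) 1) (classicalCapacity (gad γ ν)) := by
  obtain ⟨h1, h2, h3⟩ := final_of_keyIneq hγ hν (keyIneq_all hγ hν)
  refine ⟨fun n hn => ?_, h2, h3⟩
  have h := h1 n hn
  have he : holevo (tensorPow (gad γ ν) n) = n * holevo (gad γ ν) := h.csSup_eq
  exact ⟨he ▸ h, he⟩
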